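import Vale.Agent.P154.Q.DataJ2

namespace Vale.Agent.P154Q

/-- coefficients of 1875 times the one-permutation polynomial bound in the symmetrised monomials -/
def fvecS1 : List Int :=
  [0, 1250, 0, -135934, 0, 3233600, 3233600, 0, -22039232, -22039232, -110196160, -22039232, 0,
  94628096, 283884288, 662396672, 1135537152, 851652864, 0, -264649728, -1058598912, -2381847552,
  -793949184, -11644588032, -4234395648, -3175796736, -10321339392, 0, 480419840, 2402099200,
  5284618240, 4804198400, 33629388800, 12010496000, 24020992000, 38433587200, 81671372800,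
  43237785600, 0, -543571968, -3261431808, -7066435584, -8153579520, -55444340736, -19568590848,
  -5435719680, -103278673920, -81535795200, -171225169920, -114150113280, -119585832960,
  -375064657920, -48921477120, 0, 346095616, 2422669312, 5191434240, 7268007936, 48453386240,
  16958685184, 12113346560, 111442788352, 87216095232, 181700198400, 72680079360, 314947010560,
  327060357120, 508760555520, 72680079360, 702574100480, 363400396800, 0, -93847552, -750780416,
  -1595408384, -2627731456, -17267949568, -6006243328, -5255462912, -47299166208, -36788240384,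
  -76204212224, -3284664320, -76204212224, -162919350272, -168174813184, -260145414144,
  -105109258240, -108393922560, -144525230080, -919706009600, -236495831040, -210218516480,
  -486130319360]

/-- 24 times the function one -/
def vS1one : List Int :=
  [1]

/-- 72 times the function a -/
def vS1a : List Int :=
  [-1, 0, 16]

/-- 216 times the function a2 -/
def vS1a2 : List Int :=
  [1, 0, -32, 0, 0, 0, 0, 64, 0, 192]

/-- 21600 times the function o -/
def vS1o : List Int :=
  [157, 0, -2360, 0, 8544, 0, 0, -10208, 0, -30624, 0, 0, 4224, 0, 12672]

/-- 3240000 times the function g -/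
def vS1g : List Int :=
  [-827803, 0, 20087940, 0, -14558928, 0, 0, -26608200, 0, -79824600, 0, 14355648, 40535808, 0,
  121607424, 0, 0, 0, -16137632, 0, 29368800, 0, -58202496, 0, 29993472, 19579200]

/-- 54 times the function aE -/
def vS1aE : List Int :=
  [-1, 0, 20, 0, 0, 0, 0, -16, 0, -48]

/-- 162 times the function a2E -/
def vS1a2E : List Int :=
  [1, 0, -36, 0, 0, 0, 0, 96, 0, 288, 0, 0, 0, 0, 0, 0, 0, 0, -64, 0, -576, 0, 0, 0, 0, -384]

def dvecS1 : List Int := fvecS1.map (fun c => (-1555200) * c)

def FLS1 : List (List Int × List Int) :=
  [(vS1a.map (fun c => (40500000) * c), vS1one),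
   (vS1one.map (fun c => (40500000) * c), vS1a),
   (vS1o.map (fun c => (-1) * c), vS1g),
   (vS1g.map (fun c => (-1) * c), vS1o),
   (vS1a2E.map (fun c => (-60000) * c), vS1a),
   (vS1aE.map (fun c => (-60000) * c), vS1a2),
   (vS1a.map (fun c => (-60000) * c), vS1a2E),
   (vS1a2.map (fun c => (-60000) * c), vS1aE)]

end Vale.Agent.P154Q
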