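import Vale.Agent.P154.Q.PolyDefs

/-! Polynomial lower bounds of `1 / D ^ k` on `(0, 4]` and the polynomial one-term bounds. -/

namespace Vale.Agent.P154Q

/-- polynomial lower bound of `1 / (1 + t) ^ 1` on `(-1, 3]` -/
noncomputable def PSJ (t : ℝ) : ℝ :=
  1 + (-1) * t + 1 * t ^ 2 + (-1) * t ^ 3 + 9877 / 10000 * t ^ 4 + (-9081 / 10000) * t ^ 5
    + 3117 / 5000 * t ^ 6 + (-2417 / 10000) * t ^ 7 + 179 / 5000 * t ^ 8

/-- polynomial lower bound of `1 / (1 + t) ^ 1` on `(-1, 3]` -/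
noncomputable def PS1 (t : ℝ) : ℝ :=
  1 + (-1) * t + 98986153 / 100000000 * t ^ 2 + (-3957663 / 4000000) * t ^ 3
    + 26165359 / 25000000 * t ^ 4 + (-27252681 / 25000000) * t ^ 5 + 10955549 / 12500000 * t ^ 6
    + (-1441993 / 3125000) * t ^ 7 + 23419 / 160000 * t ^ 8 + (-506057 / 20000000) * t ^ 9
    + 11443 / 6250000 * t ^ 10

/-- polynomial lower bound of `1 / (1 + t) ^ 2` on `(-1, 3]` -/
noncomputable def PS2 (t : ℝ) : ℝ :=
  1 + (-2) * t + 295463257 / 100000000 * t ^ 2 + (-195529267 / 50000000) * t ^ 3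
    + 35328317 / 6250000 * t ^ 4 + (-94422279 / 12500000) * t ^ 5 + 53097107 / 10000000 * t ^ 6
    + (-135902711 / 100000000) * t ^ 7 + (-4335799 / 50000000) * t ^ 8
    + 5704739 / 100000000 * t ^ 9

/-- polynomial lower bound of `1 / (1 + t) ^ 3` on `(-1, 3]` -/
noncomputable def PS3 (t : ℝ) : ℝ :=
  1 + (-3) * t + 23271699 / 4000000 * t ^ 2 + (-32870591 / 4000000) * t ^ 3
    + 782678009 / 100000000 * t ^ 4 + (-46601729 / 10000000) * t ^ 5
    + 162574067 / 100000000 * t ^ 6 + (-29923927 / 100000000) * t ^ 7 + 220489 / 10000000 * t ^ 8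

/-- polynomial lower bound of `1 / (1 + t) ^ 4` on `(-1, 3]` -/
noncomputable def PS4 (t : ℝ) : ℝ :=
  1 + (-4) * t + 240921147 / 25000000 * t ^ 2 + (-1618529929 / 100000000) * t ^ 3
    + 1799682919 / 100000000 * t ^ 4 + (-305680471 / 25000000) * t ^ 5
    + 220802807 / 50000000 * t ^ 6 + (-63681077 / 100000000) * t ^ 7

/-- polynomial upper bound of `D a(merge)` in the products `y i = p i * r (s i)` -/
noncomputable def FS1 (y : V 4) : ℝ :=
  4 * Sf y - 128 / 3 * e2f y * PSJ (4 * Sf y - 1)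

/-- polynomial lower bound of `D oS(merge)` in the products `y i = p i * r (s i)` -/
noncomputable def FS2 (y : V 4) : ℝ :=
  512 * e3f y * PS2 (4 * Sf y - 1) - 2 * Sf y
    + 73 / 100 * (16 * Sf y ^ 2 - 128 / 3 * e2f y) * PS1 (4 * Sf y - 1)
    + 121 / 200 * (128 / 3 * e2f y) * (16 * Sf y ^ 2 - 128 / 3 * e2f y) * PS3 (4 * Sf y - 1)
    + 33 / 100 * (512 * e3f y) * (16 * Sf y ^ 2 - 128 / 3 * e2f y) * PS4 (4 * Sf y - 1)

end Vale.Agent.P154Q
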