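import Vale.Agent.P154.Q.OneVar
import Vale.Agent.P154.S.SPoly

namespace Vale.Agent.P154Q

open Vale.Agent.P154.Refl

def qPSJ : P1 := [1201171875, -310937500, 44484375, -2385625, 51475, -358]

theorem qPSJ_chk : chk qPSJ (-25) 100 = true := by decide +kernel

theorem hPSJ : ∀ D : ℝ, 0 < D → D ≤ 4 → PSJ (D - 1) ≤ 1 / D := by
  intro D hD h2
  rw [le_div_iff₀ (by positivity)]
  have key : 0 ≤ ev1 (25 * (D - 1)) qPSJ :=
    chk_nonneg qPSJ (-25) 100 (by norm_num) qPSJ_chk _ (by push_cast; linarith)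
      (by push_cast; linarith)
  have id : (97656250000 : ℝ) * (1 - PSJ (D - 1) * D) = (D - 1) ^ 4 * ev1 (25 * (D - 1)) qPSJ := by
    unfold PSJ qPSJ
    simp only [ev1, evL]
    push_cast
    ring
  have h3 : 0 ≤ (D - 1) ^ 4 * ev1 (25 * (D - 1)) qPSJ := mul_nonneg (by positivity) key
  rw [← id] at h3
  linarith

def qPS1 : P1 := [3867519378662109375, -6802062988281250, -34911260986328125, 1061837890625000, 208655585937500, -16211178125000, 492295328125, -7566618750, 58679925, -183088]

theorem qPS1_chk : chk qPS1 (-25) 100 = true := by decide +kernel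

theorem hPS1 : ∀ D : ℝ, 0 < D → D ≤ 4 → PS1 (D - 1) ≤ 1 / D := by
  intro D hD h2
  rw [le_div_iff₀ (by positivity)]
  have key : 0 ≤ ev1 (25 * (D - 1)) qPS1 :=
    chk_nonneg qPS1 (-25) 100 (by norm_num) qPS1_chk _ (by push_cast; linarith)
      (by push_cast; linarith)
  have id : (381469726562500000000 : ℝ) * (1 - PS1 (D - 1) * D) = (D - 1) ^ 2 * ev1 (25 * (D - 1)) qPS1 := by
    unfold PS1 qPS1
    simp only [ev1, evL]
    push_cast
    ring
  have h3 : 0 ≤ (D - 1) ^ 2 * ev1 (25 * (D - 1)) qPS1 := mul_nonneg (by positivity) key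
  rw [← id] at h3
  linarith

def qPS2 : P1 := [17306301116943359375, 20144653320312500, -479731817626953125, 3889312011718750, 4048167207031250, -66664530078125, -3913969531250, 92213230000, -68447000, -5704739]

theorem qPS2_chk : chk qPS2 (-25) 100 = true := by decide +kernel

theorem hPS2 : ∀ D : ℝ, 0 < D → D ≤ 4 → PS2 (D - 1) ≤ 1 / D ^ 2 := by
  intro D hD h2
  rw [le_div_iff₀ (by positivity)]
  have key : 0 ≤ ev1 (25 * (D - 1)) qPS2 :=
    chk_nonneg qPS2 (-25) 100 (by norm_num) qPS2_chk _ (by push_cast; linarith)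
      (by push_cast; linarith)
  have id : (381469726562500000000 : ℝ) * (1 - PS2 (D - 1) * D ^ 2) = (D - 1) ^ 2 * ev1 (25 * (D - 1)) qPS2 := by
    unfold PS2 qPS2
    simp only [ev1, evL]
    push_cast
    ring
  have h3 : 0 ≤ (D - 1) ^ 2 * ev1 (25 * (D - 1)) qPS2 := mul_nonneg (by positivity) key
  rw [← id] at h3
  linarith

def qPS3 : P1 := [13891239166259765625, -3772358703613281250, 289598255615234375, 72515283203125, -567952048828125, 12310592734375, 205818687500, -9927119500, 116546285, -440978]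

theorem qPS3_chk : chk qPS3 (-25) 100 = true := by decide +kernel

theorem hPS3 : ∀ D : ℝ, 0 < D → D ≤ 4 → PS3 (D - 1) ≤ 1 / D ^ 3 := by
  intro D hD h2
  rw [le_div_iff₀ (by positivity)]
  have key : 0 ≤ ev1 (25 * (D - 1)) qPS3 :=
    chk_nonneg qPS3 (-25) 100 (by norm_num) qPS3_chk _ (by push_cast; linarith)
      (by push_cast; linarith)
  have id : (76293945312500000000 : ℝ) * (1 - PS3 (D - 1) * D ^ 3) = (D - 1) ^ 2 * ev1 (25 * (D - 1)) qPS3 := by
    unfold PS3 qPS3
    simp only [ev1, evL]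
    push_cast
    ring
  have h3 : 0 ≤ (D - 1) ^ 2 * ev1 (25 * (D - 1)) qPS3 := mul_nonneg (by positivity) key
  rw [← id] at h3
  linarith

def qPS4 : P1 := [138532302856445312500, -36042545013427734375, 2394587823486328125, 68464704589843750, -8187309218750000, 20854757031250, 10879613140625, -101008818750, -4672032650, 63681077]

theorem qPS4_chk : chk qPS4 (-25) 100 = true := by decide +kernel

theorem hPS4 : ∀ D : ℝ, 0 < D → D ≤ 4 → PS4 (D - 1) ≤ 1 / D ^ 4 := by
  intro D hD h2
  rw [le_div_iff₀ (by positivity)]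
  have key : 0 ≤ ev1 (25 * (D - 1)) qPS4 :=
    chk_nonneg qPS4 (-25) 100 (by norm_num) qPS4_chk _ (by push_cast; linarith)
      (by push_cast; linarith)
  have id : (381469726562500000000 : ℝ) * (1 - PS4 (D - 1) * D ^ 4) = (D - 1) ^ 2 * ev1 (25 * (D - 1)) qPS4 := by
    unfold PS4 qPS4
    simp only [ev1, evL]
    push_cast
    ring
  have h3 : 0 ≤ (D - 1) ^ 2 * ev1 (25 * (D - 1)) qPS4 := mul_nonneg (by positivity) key
  rw [← id] at h3
  linarith

end Vale.Agent.P154Q
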