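import Vale.Agent.P154.S.SAtoms
import Vale.Agent.P154.S.SCert
import Vale.Agent.P154.S.SOneVar

/-! The symmetric cone data for four colours. -/

namespace Vale.Agent.P154Q

open Finset Equiv
open Vale.Agent.P154.Refl SA

noncomputable def gS (p : V 4) : ℝ := linR vS1g (MsL parts10 p) / 3240000
noncomputable def hS (p : V 4) : ℝ := linR vS2h (MsL parts12 p) / 810000

theorem gS_nonneg (p : V 4) (hp : InSimplex p) : 0 ≤ gS p :=
  div_nonneg (gS_cert p hp) (by norm_num)
theorem hS_nonneg (p : V 4) (hp : InSimplex p) : 0 ≤ hS p :=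
  div_nonneg (hS_cert p hp) (by norm_num)

theorem sum_FS1_le (p r : V 4) (hp : InSimplex p) (hr : InSimplex r) :
    ∑ s : Perm (Fin 4), FS1 (fun i => p i * r (s i)) ≤
      24 * (aF p + aF r - oS p * gS r - oS r * gS p - GaS (1 / 50) p r) := by
  have h2 : ∑ s : Perm (Fin 4), 1875 * FS1 (fun i => p i * r (s i))
      = diagR fvecS1 (MsL parts10 p) (MsL parts10 r) := by
    have e : ∀ s : Perm (Fin 4), 1875 * FS1 (fun i => p i * r (s i))
        = linR fvecS1 (MsL parts10 (fun i => p i * r (s i))) :=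
      fun s => (lin_FS1 _ (fun i => mul_pos (hp.1 i) (hr.1 (s i)))).symm
    simp only [e]
    exact sum_linR_MsL p r _ _
  rw [← Finset.mul_sum] at h2
  have h3 := J1S_cert p r hp hr
  have e1 : ∀ v : V 4, linR vS1g (MsL parts10 v) = 3240000 * gS v := fun v => by unfold gS; ring
  simp only [dvecS1, FLS1, rkR, diagR_map_mul, linR_map_mul, linS1_one, linS1_a, linS1_a2, linS1_o,
    linS1_aE, linS1_a2E, e1, ← h2] at h3
  unfold GaS GaF
  push_cast at h3
  nlinarith [h3]

theorem le_sum_FS2 (p r : V 4) (hp : InSimplex p) (hr : InSimplex r) :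
    24 * (oS p * hS r + oS r * hS p) ≤ ∑ s : Perm (Fin 4), FS2 (fun i => p i * r (s i)) := by
  have h2 : ∑ s : Perm (Fin 4), 351562500 * FS2 (fun i => p i * r (s i))
      = diagR fvecS2 (MsL parts12 p) (MsL parts12 r) := by
    have e : ∀ s : Perm (Fin 4), 351562500 * FS2 (fun i => p i * r (s i))
        = linR fvecS2 (MsL parts12 (fun i => p i * r (s i))) :=
      fun s => (lin_FS2 _ (fun i => mul_pos (hp.1 i) (hr.1 (s i)))).symm
    simp only [e]
    exact sum_linR_MsL p r _ _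
  rw [← Finset.mul_sum] at h2
  have h3 := J2S_cert p r hp hr
  have e1 : ∀ v : V 4, linR vS2h (MsL parts12 v) = 810000 * hS v := fun v => by unfold hS; ring
  simp only [dvecS2, FLS2, rkR, diagR_map_mul, linR_map_mul, linS2_o, e1, ← h2] at h3
  push_cast at h3
  nlinarith [h3]

theorem FS1_eq (y : V 4) : FS1 y = DD y - MM y * PSJ (DD y - 1) := by
  unfold FS1 MM
  rw [DD_eq_Sf, e2y_eq]

theorem FS2_eq (y : V 4) : FS2 y = TT y / 2 * PS2 (DD y - 1) - DD y / 2
    + 73 / 100 * WW y * PS1 (DD y - 1) + 121 / 200 * (MM y * WW y) * PS3 (DD y - 1)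
    + 33 / 100 * (TT y / 2 * WW y) * PS4 (DD y - 1) := by
  unfold FS2 TT WW MM
  rw [DD_eq_Sf, e2y_eq, e3y_eq]
  ring

theorem j1S (p r : V 4) (hp : InSimplex p) (hr : InSimplex r) :
    avgM aF p r ≤ aF p + aF r - oS p * gS r - oS r * gS p - GaS (1 / 50) p r := by
  unfold avgM
  have e : ((Nat.factorial 4 : ℕ) : ℝ) = 24 := by norm_num [Nat.factorial]
  rw [e, div_le_iff₀ (by norm_num)]
  have h1 := Finset.sum_le_sum (fun s (_ : s ∈ (Finset.univ : Finset (Perm (Fin 4)))) =>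
    term_aS PSJ hPSJ hp hr s)
  have h2 := sum_FS1_le p r hp hr
  have h3 : ∀ s : Perm (Fin 4), DD (yv p (r ∘ s)) - MM (yv p (r ∘ s)) * PSJ (DD (yv p (r ∘ s)) - 1)
      = FS1 (fun i => p i * r (s i)) := fun s => by rw [yv_comp, FS1_eq]
  simp only [h3] at h1
  linarith

theorem j2S (p r : V 4) (hp : InSimplex p) (hr : InSimplex r) :
    oS p * hS r + oS r * hS p ≤ avgM oS p r := by
  unfold avgM
  have e : ((Nat.factorial 4 : ℕ) : ℝ) = 24 := by norm_num [Nat.factorial]
  rw [e, le_div_iff₀ (by norm_num)]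
  have h1 := Finset.sum_le_sum (fun s (_ : s ∈ (Finset.univ : Finset (Perm (Fin 4)))) =>
    term_oS_ge PS1 PS2 PS3 PS4 hPS1 hPS2 hPS3 hPS4 hp hr s)
  have h2 := le_sum_FS2 p r hp hr
  have h3 : ∀ s : Perm (Fin 4),
      TT (yv p (r ∘ s)) / 2 * PS2 (DD (yv p (r ∘ s)) - 1) - DD (yv p (r ∘ s)) / 2
        + 73 / 100 * WW (yv p (r ∘ s)) * PS1 (DD (yv p (r ∘ s)) - 1)
        + 121 / 200 * (MM (yv p (r ∘ s)) * WW (yv p (r ∘ s))) * PS3 (DD (yv p (r ∘ s)) - 1)
        + 33 / 100 * (TT (yv p (r ∘ s)) / 2 * WW (yv p (r ∘ s))) * PS4 (DD (yv p (r ∘ s)) - 1)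
      = FS2 (fun i => p i * r (s i)) := fun s => by rw [yv_comp, FS2_eq]
  simp only [h3] at h1
  linarith

/-- the symmetric cone data for four colours: valid for all channel strengths below one -/
theorem coneDataS : ConeData 4 oS gS hS (GaS (1 / 50)) 1 2 :=
  coneDataS_of (by norm_num) gS_nonneg hS_nonneg j1S j2S

end Vale.Agent.P154Q
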