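import Vale.Agent.P154.Q.IdentBase
import Vale.Agent.P154.Q.Terms

/-! Small evaluation lemmas used by the symmetric certificates (kept apart from the files of the
asymmetric certificates, so that these are not imported). -/

namespace Vale.Agent.P154Q.SA

open Vale.Agent.P154.Refl Vale.Agent.P154Q

section atoms
variable {x y z w : ℝ}

theorem ev_S4p : ev4 x y z w S4p = x + y + z + w := by
  simp only [S4p, ev4_add, ev4_X4, ev4_Y4, ev4_Z4, ev4_W4]
theorem ev_Q2p : ev4 x y z w Q2p = x ^ 2 + y ^ 2 + z ^ 2 + w ^ 2 := by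
  simp only [Q2p, ev4_add, ev4_pow, ev4_X4, ev4_Y4, ev4_Z4, ev4_W4]
theorem ev_Q3p : ev4 x y z w Q3p = x ^ 3 + y ^ 3 + z ^ 3 + w ^ 3 := by
  simp only [Q3p, ev4_add, ev4_pow, ev4_X4, ev4_Y4, ev4_Z4, ev4_W4]
theorem ev_E2p : ev4 x y z w E2p = x * y + x * z + x * w + y * z + y * w + z * w := by
  simp only [E2p, ev4_add, ev4_mul, ev4_X4, ev4_Y4, ev4_Z4, ev4_W4]
theorem ev_E3p : ev4 x y z w E3p = x * y * z + x * y * w + x * z * w + y * z * w := by
  simp only [E3p, ev4_add, ev4_mul, ev4_X4, ev4_Y4, ev4_Z4, ev4_W4]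
theorem ev_tau4 : ev4 x y z w tau4 = 4 * (x + y + z + w) - 1 := by
  simp only [tau4, ev4_sub, ev4_smul4, ev4_c4, ev_S4p]; push_cast; ring
theorem ev_a3p : ev4 x y z w a3p = 4 * (x ^ 2 + y ^ 2 + z ^ 2 + w ^ 2) - 1 := by
  simp only [a3p, ev4_sub, ev4_smul4, ev4_c4, ev_Q2p]; push_cast; ring
theorem ev_A3p : ev4 x y z w A3p
    = 8 * (x ^ 3 + y ^ 3 + z ^ 3 + w ^ 3) - 6 * (x ^ 2 + y ^ 2 + z ^ 2 + w ^ 2) + 1 := by
  simp only [A3p, ev4_add, ev4_sub, ev4_smul4, ev4_c4, ev_Q2p, ev_Q3p]; push_cast; ring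
theorem ev_W3p : ev4 x y z w W3p
    = 3 * ((x + y + z + w) * (x + y + z + w)) - 8 * (x * y + x * z + x * w + y * z + y * w + z * w) := by
  simp only [W3p, ev4_sub, ev4_smul4, ev4_mul, ev_S4p, ev_E2p]; push_cast; ring

end atoms

theorem aF_four (v : V 4) : aF v = (4 * (v 0 ^ 2 + v 1 ^ 2 + v 2 ^ 2 + v 3 ^ 2) - 1) / 3 := by
  unfold aF
  rw [Fin.sum_univ_four]
  norm_num

theorem A4_four (v : V 4) : A4 v = (8 * (v 0 ^ 3 + v 1 ^ 3 + v 2 ^ 3 + v 3 ^ 3)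
    - 6 * (v 0 ^ 2 + v 1 ^ 2 + v 2 ^ 2 + v 3 ^ 2) + 1) / 3 := by
  unfold A4
  rw [Fin.sum_univ_four, Fin.sum_univ_four]

theorem linR_map_mul (m : ℤ) : ∀ (cs : List ℤ) (ps : List ℝ),
    linR (cs.map (fun c => m * c)) ps = m * linR cs ps
  | c :: cs, p :: ps => by
      simp only [List.map_cons, linR, linR_map_mul m cs ps]; push_cast; ring
  | [], _ => by simp [linR]
  | _ :: _, [] => by simp [linR]

theorem diagR_map_mul (m : ℤ) : ∀ (cs : List ℤ) (ps qs : List ℝ),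
    diagR (cs.map (fun c => m * c)) ps qs = m * diagR cs ps qs
  | c :: cs, p :: ps, q :: qs => by
      simp only [List.map_cons, diagR, diagR_map_mul m cs ps qs]; push_cast; ring
  | [], _, _ => by simp [diagR]
  | _ :: _, [], _ => by simp [diagR]
  | _ :: _, _ :: _, [] => by simp [diagR]

theorem deg10 : ∀ b ∈ parts10, Ex4.deg b ≤ 10 := by decide

end Vale.Agent.P154Q.SA
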