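import Vale.Agent.P154.Q.Terms

/-! Symmetric cone data for four colours (all channel strengths below one): basic facts. -/

namespace Vale.Agent.P154Q

open Finset

/-- the symmetric cone functional -/
noncomputable def oS (p : V 4) : ℝ := AF p * (1 + 33 / 100 * aF p) - 11 / 10 * aF p ^ 2
/-- symmetrised cubic gain -/
noncomputable def GaS (c : ℝ) (p r : V 4) : ℝ := (GaF c p r + GaF c r p) / 2

theorem AF_le_aF {p : V 4} (hp : InClosed p) : AF p ≤ aF p := by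
  obtain ⟨h0, hs⟩ := hp
  unfold AF aF
  rw [Fin.sum_univ_four] at hs
  simp only [Fin.sum_univ_four]
  have x0 := h0 0
  have x1 := h0 1
  have x2 := h0 2
  have x3 := h0 3
  generalize p 0 = x at *
  generalize p 1 = y at *
  generalize p 2 = z at *
  generalize p 3 = w at *
  have key : 10 * (x ^ 2 + y ^ 2 + z ^ 2 + w ^ 2) * (x + y + z + w) - 8 * (x ^ 3 + y ^ 3 + z ^ 3 + w ^ 3)
      - 2 * (x + y + z + w) ^ 3 = 2 * (x * ((y - z) ^ 2 + (y - w) ^ 2 + (z - w) ^ 2)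
        + y * ((x - z) ^ 2 + (x - w) ^ 2 + (z - w) ^ 2) + z * ((x - y) ^ 2 + (x - w) ^ 2 + (y - w) ^ 2)
        + w * ((x - y) ^ 2 + (x - z) ^ 2 + (y - z) ^ 2)) := by ring
  rw [hs] at key
  have pos : 0 ≤ 2 * (x * ((y - z) ^ 2 + (y - w) ^ 2 + (z - w) ^ 2)
        + y * ((x - z) ^ 2 + (x - w) ^ 2 + (z - w) ^ 2) + z * ((x - y) ^ 2 + (x - w) ^ 2 + (y - w) ^ 2)
        + w * ((x - y) ^ 2 + (x - z) ^ 2 + (y - z) ^ 2)) := by positivity
  push_cast
  rw [div_le_div_iff₀ (by norm_num) (by norm_num)]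
  nlinarith

theorem oS_chanP {lam : ℝ} (h0 : 0 ≤ lam) (h1 : lam ≤ 1) {p : V 4} (hp : InClosed p) :
    lam ^ 3 * oS p ≤ oS (chanP lam p) := by
  unfold oS
  rw [AF_chanP lam hp.2, aF_chanP lam hp.2]
  have hA := AF_le_aF hp
  have ha := aF_nonneg' hp.2
  -- difference = lam^3 a (1-lam) [11/10 a - 33/100 A (1+lam)]
  have e : lam ^ 3 * AF p * (1 + 33 / 100 * (lam ^ 2 * aF p)) - 11 / 10 * (lam ^ 2 * aF p) ^ 2
      - lam ^ 3 * (AF p * (1 + 33 / 100 * aF p) - 11 / 10 * aF p ^ 2)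
      = lam ^ 3 * aF p * (1 - lam) * (11 / 10 * aF p - 33 / 100 * (1 + lam) * AF p) := by ring
  have h2 : 0 ≤ 11 / 10 * aF p - 33 / 100 * (1 + lam) * AF p := by
    have : 33 / 100 * (1 + lam) * AF p ≤ 33 / 100 * (1 + lam) * aF p :=
      mul_le_mul_of_nonneg_left hA (by positivity)
    nlinarith
  have h3 : 0 ≤ lam ^ 3 * aF p * (1 - lam) * (11 / 10 * aF p - 33 / 100 * (1 + lam) * AF p) := by
    have : 0 ≤ 1 - lam := by linarith
    positivity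
  linarith

theorem oS_delta (i : Fin 4) : 0 ≤ oS (fun j => if i = j then 1 else 0) := by
  have e1 : aF (fun j : Fin 4 => if i = j then (1 : ℝ) else 0) = 1 := by
    unfold aF
    simp
    norm_num
  have e2 : AF (fun j : Fin 4 => if i = j then (1 : ℝ) else 0) = 1 := by
    unfold AF
    simp
    norm_num
  unfold oS
  rw [e1, e2]
  norm_num

theorem term_oS (p r : V 4) (hD : 0 < DD (yv p r)) :
    Dm p r * oS (merge p r) = TT (yv p r) / 2 * (1 / DD (yv p r) ^ 2) - DD (yv p r) / 2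
      + 73 / 100 * WW (yv p r) * (1 / DD (yv p r))
      + 121 / 200 * (MM (yv p r) * WW (yv p r)) * (1 / DD (yv p r) ^ 3)
      + 33 / 100 * (TT (yv p r) / 2 * WW (yv p r)) * (1 / DD (yv p r) ^ 4) := by
  rw [Dm_eq_DD, merge_eq]
  unfold oS
  rw [AF_div _ hD, aF_div' _ hD]
  have hne : DD (yv p r) ≠ 0 := hD.ne'
  have e : MM (yv p r) = DD (yv p r) ^ 2 - WW (yv p r) := by unfold WW; ring
  rw [e]
  field_simp
  ring

theorem DD_rangeS {p r : V 4} (hp : InSimplex p) (hr : InSimplex r) :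
    0 < DD (yv p r) ∧ DD (yv p r) ≤ 4 := by
  obtain ⟨hp0, hps⟩ := hp
  obtain ⟨hr0, hrs⟩ := hr
  rw [Fin.sum_univ_four] at hps hrs
  have l0 := hr0 0
  have l1 := hr0 1
  have l2 := hr0 2
  have l3 := hr0 3
  have q0 := hp0 0
  have q1 := hp0 1
  have q2 := hp0 2
  have q3 := hp0 3
  have u0 : r 0 ≤ 1 := by linarith
  have u1 : r 1 ≤ 1 := by linarith
  have u2 : r 2 ≤ 1 := by linarith
  have u3 : r 3 ≤ 1 := by linarith
  unfold DD yv
  constructor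
  · positivity
  · nlinarith [mul_nonneg q0.le (sub_nonneg.2 u0), mul_nonneg q1.le (sub_nonneg.2 u1),
      mul_nonneg q2.le (sub_nonneg.2 u2), mul_nonneg q3.le (sub_nonneg.2 u3)]

theorem inSimplex_comp {r : V 4} (hr : InSimplex r) (s : Equiv.Perm (Fin 4)) :
    InSimplex (r ∘ s) :=
  ⟨fun i => hr.1 (s i), by rw [← hr.2]; exact Equiv.sum_comp s r⟩

theorem yv_nonnegS {p r : V 4} (hp : InSimplex p) (hr : InSimplex r) (i : Fin 4) :
    0 ≤ yv p r i := mul_nonneg (hp.1 i).le (hr.1 i).le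

theorem term_aS (P1 : ℝ → ℝ) (hP1 : ∀ D : ℝ, 0 < D → D ≤ 4 → P1 (D - 1) ≤ 1 / D)
    {p r : V 4} (hp : InSimplex p) (hr : InSimplex r) (s : Equiv.Perm (Fin 4)) :
    Dm p (r ∘ s) * aF (merge p (r ∘ s)) ≤
      DD (yv p (r ∘ s)) - MM (yv p (r ∘ s)) * P1 (DD (yv p (r ∘ s)) - 1) := by
  have hs := inSimplex_comp hr s
  obtain ⟨hD, d2⟩ := DD_rangeS hp hs
  rw [term_aF p (r ∘ s) hD]
  have h1 := hP1 _ hD d2
  have h2 := mul_le_mul_of_nonneg_left h1 (MM_nonneg (yv_nonnegS hp hs))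
  have e : MM (yv p (r ∘ s)) / DD (yv p (r ∘ s)) = MM (yv p (r ∘ s)) * (1 / DD (yv p (r ∘ s))) := by
    ring
  rw [e]
  linarith

theorem term_oS_ge (Q1 Q2 Q3 Q4 : ℝ → ℝ)
    (hQ1 : ∀ D : ℝ, 0 < D → D ≤ 4 → Q1 (D - 1) ≤ 1 / D)
    (hQ2 : ∀ D : ℝ, 0 < D → D ≤ 4 → Q2 (D - 1) ≤ 1 / D ^ 2)
    (hQ3 : ∀ D : ℝ, 0 < D → D ≤ 4 → Q3 (D - 1) ≤ 1 / D ^ 3)
    (hQ4 : ∀ D : ℝ, 0 < D → D ≤ 4 → Q4 (D - 1) ≤ 1 / D ^ 4)
    {p r : V 4} (hp : InSimplex p) (hr : InSimplex r) (s : Equiv.Perm (Fin 4)) :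
    TT (yv p (r ∘ s)) / 2 * Q2 (DD (yv p (r ∘ s)) - 1) - DD (yv p (r ∘ s)) / 2
        + 73 / 100 * WW (yv p (r ∘ s)) * Q1 (DD (yv p (r ∘ s)) - 1)
        + 121 / 200 * (MM (yv p (r ∘ s)) * WW (yv p (r ∘ s))) * Q3 (DD (yv p (r ∘ s)) - 1)
        + 33 / 100 * (TT (yv p (r ∘ s)) / 2 * WW (yv p (r ∘ s))) * Q4 (DD (yv p (r ∘ s)) - 1)
      ≤ Dm p (r ∘ s) * oS (merge p (r ∘ s)) := by
  have hs := inSimplex_comp hr s
  obtain ⟨hD, d2⟩ := DD_rangeS hp hs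
  rw [term_oS p (r ∘ s) hD]
  have hy := yv_nonnegS hp hs
  have hM := MM_nonneg hy
  have hT := TT_nonneg hy
  have hW := WW_nonneg (yv p (r ∘ s))
  have b1 := mul_le_mul_of_nonneg_left (hQ1 _ hD d2)
    (mul_nonneg (by norm_num : (0 : ℝ) ≤ 73 / 100) hW)
  have b2 := mul_le_mul_of_nonneg_left (hQ2 _ hD d2) (by positivity : 0 ≤ TT (yv p (r ∘ s)) / 2)
  have b3 := mul_le_mul_of_nonneg_left (hQ3 _ hD d2)
    (mul_nonneg (by norm_num : (0 : ℝ) ≤ 121 / 200) (mul_nonneg hM hW))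
  have b4 := mul_le_mul_of_nonneg_left (hQ4 _ hD d2)
    (mul_nonneg (by norm_num : (0 : ℝ) ≤ 33 / 100)
      (mul_nonneg (by positivity : 0 ≤ TT (yv p (r ∘ s)) / 2) hW))
  linarith

theorem coneDataS_of {c : ℝ} {g hh : V 4 → ℝ} (hc : 0 < c)
    (g_nonneg : ∀ p, InSimplex p → 0 ≤ g p)
    (h_nonneg : ∀ p, InSimplex p → 0 ≤ hh p)
    (j1 : ∀ p r, InSimplex p → InSimplex r →
      avgM aF p r ≤ aF p + aF r - oS p * g r - oS r * g p - GaS c p r)
    (j2 : ∀ p r, InSimplex p → InSimplex r → oS p * hh r + oS r * hh p ≤ avgM oS p r) :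
    ConeData 4 oS g hh (GaS c) 1 2 where
  g_nonneg := g_nonneg
  h_nonneg := h_nonneg
  Ga_nonneg := fun p r hp hr => by
    unfold GaS
    have h1 := GaF_nonneg hc.le hp.closed hr.closed
    have h2 := GaF_nonneg hc.le hr.closed hp.closed
    linarith
  chan := fun lam h0 hl => ⟨lam ^ 3, by positivity, fun p hp => oS_chanP h0 hl.le hp⟩
  delta := oS_delta
  j1 := j1
  j2 := j2
  gain := fun lam h0 hl => by
    have hl2 : lam ^ 2 < 1 := by nlinarith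
    refine ⟨c * lam ^ 6 * (1 - lam ^ 2) / 2, by
      have : 0 < 1 - lam ^ 2 := by linarith
      positivity, fun p r hp hr => ?_⟩
    have h1 := GaF_gain hc.le hl2.le hp hr
    have hq : ∀ {v : V 4}, InClosed v → InClosed (chanP lam v) := fun {v} hv =>
      ⟨fun i => by
        unfold chanP
        have := mul_nonneg h0.le (hv.1 i)
        have h4 : (0 : ℝ) ≤ (1 - lam) / ((4 : ℕ) : ℝ) := by
          apply div_nonneg (by linarith) (by norm_num)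
        linarith, sum_chanP lam hv.2⟩
    have h2 := GaF_nonneg hc.le (hq hr) (hq hp)
    unfold GaS
    linarith

end Vale.Agent.P154Q
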