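import Vale.Agent.P154.S.SLink

/-! Identities between symmetric polynomials from packed checks on the simplex. -/

namespace Vale.Agent.P154K

open Vale.Agent.P154.Refl Vale.Agent.P154Q

theorem deg_eq_degN (b : Ex4) : b.deg = degN b := rfl

/-- splitting a combination of symmetrised monomials at a scaled point by degrees -/
theorem linR_scale (N : ℕ) (c : ℝ) (v : V 4) : ∀ (bs : List Ex4) (cs : List ℤ),
    (∀ b ∈ bs, b.deg ≤ N) →
    linR cs (MsL bs (fun i => c * v i))
      = ∑ k ∈ Finset.range (N + 1), c ^ k * linR (degSel k bs cs) (MsL bs v)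
  | [], cs, _ => by
      cases cs <;> simp [MsL, linR, degSel]
  | b :: bs, [], _ => by simp [linR, degSel]
  | b :: bs, a :: cs, h => by
      have ih := linR_scale N c v bs cs (fun b' hb' => h b' (List.mem_cons_of_mem _ hb'))
      have hb : b.deg ≤ N := h b (List.mem_cons_self)
      simp only [MsL, List.map_cons, linR, degSel] at ih ⊢
      rw [ih, Ms_smul]
      simp only [mul_add, Finset.sum_add_distrib]
      congr 1
      rw [Finset.sum_eq_single b.deg]
      · have e : Nat.beq (degN b) b.deg = true := by
          rw [deg_eq_degN]; exact Nat.beq_refl _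
        rw [e]
        simp only [cond_true]
        ring
      · intro k _ hk
        have e : Nat.beq (degN b) k = false := by
          rw [← deg_eq_degN]
          cases h' : Nat.beq b.deg k
          · rfl
          · exact absurd (Nat.eq_of_beq_eq_true h').symm hk
        rw [e]
        simp
      · intro hn
        exact absurd (Finset.mem_range.2 (Nat.lt_succ_of_le hb)) hn

/-- an identity on the simplex from the two packed sign checks -/
theorem id_of_idZ (B N : ℕ) (hB : 0 < B) (bs : List Ex4) (hb : ∀ b ∈ bs, b.deg ≤ N)
    (cs ds : List ℤ) (h : idZ B N bs cs ds = true) (v : V 4) (hv : InSimplex v) :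
    linR cs (MsL bs v) = linR ds (MsL bs v) := by
  unfold idZ at h
  rw [Bool.and_eq_true] at h
  have h1 := certPK B N hB bs hb _ h.1 v hv
  have h2 := certPK B N hB bs hb _ h.2 v hv
  rw [linR_addV, linR_smulV] at h1 h2
  push_cast at h1 h2
  linarith

theorem linR_hV (t0 t1 t2 t3 t4 : ℤ) (X : List ℝ) :
    linR (hV t0 t1 t2 t3 t4) X = t0 * linR wOne X + t1 * linR wE2 X + t2 * linR wE3 X
      + t3 * linR wE22 X + t4 * linR wE23 X := by
  unfold hV
  simp only [linR_addV, linR_smulV]
  ring

end Vale.Agent.P154K
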