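import Vale.Agent.P154.S.SIdentBase

namespace Vale.Agent.P154Q

open Vale.Agent.P154.Refl Vale.Agent.P154K

set_option maxRecDepth 1000000 in
theorem zSone : isz4 (sub4 (lin4 vS1one (bas4 parts6)) Uone) = true := by decide +kernel

set_option maxRecDepth 1000000 in
theorem zSa : isz4 (sub4 (lin4 vS1a (bas4 parts6)) Ua) = true := by decide +kernel

set_option maxRecDepth 1000000 in
theorem zSa2 : isz4 (sub4 (lin4 vS1a2 (bas4 parts6)) Ua2) = true := by decide +kernel

set_option maxRecDepth 1000000 in
theorem zSo : isz4 (sub4 (lin4 vS1o (bas4 parts6)) UoS) = true := by decide +kernel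

set_option maxRecDepth 1000000 in
theorem zSaE : isz4 (sub4 (lin4 vS1aE (bas4 parts6)) UaE) = true := by decide +kernel

set_option maxRecDepth 1000000 in
theorem zSa2E : isz4 (sub4 (lin4 vS1a2E (bas4 parts6)) Ua2E) = true := by decide +kernel

set_option maxRecDepth 1000000 in
theorem zwOne : isz4 (sub4 (lin4 wOne (bas4 parts6)) (c4 24)) = true := by decide +kernel

set_option maxRecDepth 1000000 in
theorem zwE2 : isz4 (sub4 (lin4 wE2 (bas4 parts6)) (smul4 24 E2p)) = true := by decide +kernel

set_option maxRecDepth 1000000 in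
theorem zwE3 : isz4 (sub4 (lin4 wE3 (bas4 parts6)) (smul4 24 E3p)) = true := by decide +kernel

set_option maxRecDepth 1000000 in
theorem zwE22 : isz4 (sub4 (lin4 wE22 (bas4 parts6)) (smul4 24 (mul4 E2p E2p))) = true := by decide +kernel

set_option maxRecDepth 1000000 in
theorem zwE23 : isz4 (sub4 (lin4 wE23 (bas4 parts6)) (smul4 24 (mul4 E2p E3p))) = true := by decide +kernel

theorem vS2o_eq : vS2o = vS1o := by decide

end Vale.Agent.P154Q
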