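import Vale.Agent.P154.Q.KCertBase

/-! The packed check for `simplex x simplex`. -/

namespace Vale.Agent.P154K

/-- the check of the digits `k, ..., k + n - 1` of the outer variable, both sides in the simplex -/
def chunkS (B N : Nat) (bs : List E4) (dv : List Int) (FL : List (List Int × List Int))
    (k n : Nat) : Bool :=
  chkL (chk2 B N (posW (UsK B N bs) (matM dv FL)) (negW (UsK B N bs) (matM dv FL))
    (posW (sPK N bs) (matM dv FL)) (negW (sPK N bs) (matM dv FL)))
    ((B ^ (N + 1)) ^ (N + 1)) n (slc ((B ^ (N + 1)) ^ (N + 1)) k (UsK B N bs))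

/-- the part of a coefficient vector that sits on exponent vectors of degree `k` -/
def degSel (k : Nat) : List E4 → List Int → List Int
  | b :: bs, c :: cs => cond (Nat.beq (degN b) k) c 0 :: degSel k bs cs
  | [], _ => []
  | _ :: _, [] => []

/-- 24 times the functions `1`, `e2`, `e3`, `e2 ^ 2`, `e2 * e3` in the symmetrised monomials -/
def wOne : List Int := [1]
def wE2 : List Int := [0, 0, 0, 6]
def wE3 : List Int := [0, 0, 0, 0, 0, 0, 4]
def wE22 : List Int := [0, 0, 0, 0, 0, 0, 0, 0, 0, 6, 24, 6]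
def wE23 : List Int := [0, 0, 0, 0, 0, 0, 0, 0, 0, 0, 0, 0, 0, 0, 0, 0, 12, 12]

/-- `24 (t0 + t1 e2 + t2 e3 + t3 e2 ^ 2 + t4 e2 e3)` -/
def hV (t0 t1 t2 t3 t4 : Int) : List Int :=
  addV (smulV t0 wOne) (addV (smulV t1 wE2) (addV (smulV t2 wE3)
    (addV (smulV t3 wE22) (smulV t4 wE23))))

/-- both signs of `cs - ds` pass the packed sign check on the simplex -/
def idZ (B N : Nat) (bs : List E4) (cs ds : List Int) : Bool :=
  rowZ B N (UsK B N bs) (sPK N bs) (addV cs (smulV (-1) ds)) &&
    rowZ B N (UsK B N bs) (sPK N bs) (addV ds (smulV (-1) cs))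

end Vale.Agent.P154K
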