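import Vale.Agent.P154.Q.IdentBase
import Vale.Agent.P154.S.DataS1
import Vale.Agent.P154.S.DataS2
import Vale.Agent.P154.S.SPoly
import Vale.Agent.P154.S.SKDefs

namespace Vale.Agent.P154Q

open Vale.Agent.P154.Refl

def parts6 : List Ex4 :=
  [(0, 0, 0, 0), (1, 0, 0, 0), (2, 0, 0, 0), (1, 1, 0, 0), (3, 0, 0, 0), (2, 1, 0, 0), (1, 1, 1, 0),
  (4, 0, 0, 0), (3, 1, 0, 0), (2, 2, 0, 0), (2, 1, 1, 0), (1, 1, 1, 1), (5, 0, 0, 0), (4, 1, 0, 0),
  (3, 2, 0, 0), (3, 1, 1, 0), (2, 2, 1, 0), (2, 1, 1, 1), (6, 0, 0, 0), (5, 1, 0, 0), (4, 2, 0, 0),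
  (4, 1, 1, 0), (3, 3, 0, 0), (3, 2, 1, 0), (3, 1, 1, 1), (2, 2, 2, 0), (2, 2, 1, 1)]

def UoS : P4 := add4 (sub4 (smul4 7200 A3p) (smul4 2640 (mul4 a3p a3p))) (smul4 792 (mul4 a3p A3p))

theorem linR_append_left : ∀ (cs : List ℤ) (X Y : List ℝ), cs.length ≤ X.length →
    linR cs (X ++ Y) = linR cs X
  | [], _, _, _ => by simp [linR]
  | c :: cs, [], Y, h => by simp at h
  | c :: cs, x :: X, Y, h => by
      simp only [List.cons_append, linR]
      rw [linR_append_left cs X Y (by simpa using h)]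

theorem take10 : parts10.take 27 = parts6 := by decide
theorem take12 : parts12.take 27 = parts6 := by decide

theorem linR_low10 (cs : List ℤ) (h : cs.length ≤ 27) (v : V 4) :
    linR cs (MsL parts10 v) = linR cs (MsL parts6 v) := by
  have e : parts10 = parts6 ++ parts10.drop 27 := by
    rw [← take10]; exact (List.take_append_drop 27 parts10).symm
  rw [e]
  unfold MsL
  rw [List.map_append]
  exact linR_append_left _ _ _ (by simpa [parts6] using h)

theorem linR_low12 (cs : List ℤ) (h : cs.length ≤ 27) (v : V 4) :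
    linR cs (MsL parts12 v) = linR cs (MsL parts6 v) := by
  have e : parts12 = parts6 ++ parts12.drop 27 := by
    rw [← take12]; exact (List.take_append_drop 27 parts12).symm
  rw [e]
  unfold MsL
  rw [List.map_append]
  exact linR_append_left _ _ _ (by simpa [parts6] using h)

end Vale.Agent.P154Q
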