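import Vale.Agent.P154.S.SAtoms
import Vale.Agent.P154.S.SBase
import Vale.Agent.P154.S.SGlue
import Vale.Agent.P154.S.SIdentA
import Vale.Agent.P154.S.TIdS1
import Vale.Agent.P154.S.TIdS2

/-! The real meaning of the integer vectors of the symmetric certificates. -/

namespace Vale.Agent.P154Q

open Vale.Agent.P154.Refl Vale.Agent.P154K SA

set_option maxRecDepth 100000 in
theorem deg12 : ∀ b ∈ parts12, Ex4.deg b ≤ 12 := by decide

theorem BS1_pos : 0 < BS1 := by unfold BS1; positivity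
theorem BS2_pos : 0 < BS2 := by unfold BS2; positivity

theorem low_one (v : V 4) : linR vS1one (MsL parts6 v) = 24 := by
  rw [lin_eq _ _ _ zSone]
  simp only [Uone, ev4_c4]; norm_num

theorem low_a (v : V 4) : linR vS1a (MsL parts6 v) = 72 * aF v := by
  rw [lin_eq _ _ _ zSa, aF_four]
  simp only [Ua, ev4_smul4, ev_a3p]; push_cast; ring

theorem low_a2 (v : V 4) : linR vS1a2 (MsL parts6 v) = 216 * (aF v) ^ 2 := by
  rw [lin_eq _ _ _ zSa2, aF_four]
  simp only [Ua2, ev4_smul4, ev4_mul, ev_a3p]; push_cast; ring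

theorem low_o (v : V 4) : linR vS1o (MsL parts6 v) = 21600 * oS v := by
  rw [lin_eq _ _ _ zSo]
  unfold oS
  rw [← A4_eq_AF, aF_four, A4_four]
  simp only [UoS, ev4_smul4, ev4_sub, ev4_add, ev4_mul, ev_a3p, ev_A3p]; push_cast; ring

theorem low_aE (v : V 4) : linR vS1aE (MsL parts6 v) = 54 * (aF v * (1 - aF v)) := by
  rw [lin_eq _ _ _ zSaE, aF_four]
  simp only [UaE, ev4_smul4, ev4_sub, ev4_mul, ev4_c4, ev_a3p]; push_cast; ring

theorem low_a2E (v : V 4) : linR vS1a2E (MsL parts6 v) = 162 * ((aF v) ^ 2 * (1 - aF v)) := by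
  rw [lin_eq _ _ _ zSa2E, aF_four]
  simp only [Ua2E, ev4_smul4, ev4_sub, ev4_mul, ev4_c4, ev_a3p]; push_cast; ring

theorem low_wOne (v : V 4) : linR wOne (MsL parts6 v) = 24 := by
  rw [lin_eq _ _ _ zwOne]
  simp only [ev4_c4]; norm_num

theorem low_wE2 (v : V 4) : linR wE2 (MsL parts6 v) = 24 * e2f v := by
  rw [lin_eq _ _ _ zwE2]
  simp only [ev4_smul4, ev_E2p]; unfold e2f; push_cast; ring

theorem low_wE3 (v : V 4) : linR wE3 (MsL parts6 v) = 24 * e3f v := by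
  rw [lin_eq _ _ _ zwE3]
  simp only [ev4_smul4, ev_E3p]; unfold e3f; push_cast; ring

theorem low_wE22 (v : V 4) : linR wE22 (MsL parts6 v) = 24 * (e2f v) ^ 2 := by
  rw [lin_eq _ _ _ zwE22]
  simp only [ev4_smul4, ev4_mul, ev_E2p]; unfold e2f; push_cast; ring

theorem low_wE23 (v : V 4) : linR wE23 (MsL parts6 v) = 24 * (e2f v * e3f v) := by
  rw [lin_eq _ _ _ zwE23]
  simp only [ev4_smul4, ev4_mul, ev_E2p, ev_E3p]; unfold e2f e3f; push_cast; ring

theorem linS1_one (v : V 4) : linR vS1one (MsL parts10 v) = 24 := by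
  rw [linR_low10 _ (by decide), low_one]
theorem linS1_a (v : V 4) : linR vS1a (MsL parts10 v) = 72 * aF v := by
  rw [linR_low10 _ (by decide), low_a]
theorem linS1_a2 (v : V 4) : linR vS1a2 (MsL parts10 v) = 216 * (aF v) ^ 2 := by
  rw [linR_low10 _ (by decide), low_a2]
theorem linS1_o (v : V 4) : linR vS1o (MsL parts10 v) = 21600 * oS v := by
  rw [linR_low10 _ (by decide), low_o]
theorem linS1_aE (v : V 4) : linR vS1aE (MsL parts10 v) = 54 * (aF v * (1 - aF v)) := by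
  rw [linR_low10 _ (by decide), low_aE]
theorem linS1_a2E (v : V 4) : linR vS1a2E (MsL parts10 v) = 162 * ((aF v) ^ 2 * (1 - aF v)) := by
  rw [linR_low10 _ (by decide), low_a2E]
theorem linS2_o (v : V 4) : linR vS2o (MsL parts12 v) = 21600 * oS v := by
  rw [vS2o_eq, linR_low12 _ (by decide), low_o]

/-- one homogeneous part of a one-term polynomial on the simplex -/
theorem ell10 (fv : List ℤ) (k : ℕ) (t0 t1 t2 t3 t4 : ℤ)
    (h : idZ BS1 10 parts10 (smulV 24 (degSel k parts10 fv)) (hV t0 t1 t2 t3 t4) = true)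
    (v : V 4) (hv : InSimplex v) :
    linR (degSel k parts10 fv) (MsL parts10 v)
      = t0 + t1 * e2f v + t2 * e3f v + t3 * (e2f v) ^ 2 + t4 * (e2f v * e3f v) := by
  have h1 := id_of_idZ BS1 10 BS1_pos parts10 deg10 _ _ h v hv
  rw [linR_smulV, linR_hV, linR_low10 wOne (by decide), linR_low10 wE2 (by decide),
    linR_low10 wE3 (by decide), linR_low10 wE22 (by decide), linR_low10 wE23 (by decide),
    low_wOne, low_wE2, low_wE3, low_wE22, low_wE23] at h1
  push_cast at h1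
  linarith

theorem ell12 (fv : List ℤ) (k : ℕ) (t0 t1 t2 t3 t4 : ℤ)
    (h : idZ BS2 12 parts12 (smulV 24 (degSel k parts12 fv)) (hV t0 t1 t2 t3 t4) = true)
    (v : V 4) (hv : InSimplex v) :
    linR (degSel k parts12 fv) (MsL parts12 v)
      = t0 + t1 * e2f v + t2 * e3f v + t3 * (e2f v) ^ 2 + t4 * (e2f v * e3f v) := by
  have h1 := id_of_idZ BS2 12 BS2_pos parts12 deg12 _ _ h v hv
  rw [linR_smulV, linR_hV, linR_low12 wOne (by decide), linR_low12 wE2 (by decide),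
    linR_low12 wE3 (by decide), linR_low12 wE22 (by decide), linR_low12 wE23 (by decide),
    low_wOne, low_wE2, low_wE3, low_wE22, low_wE23] at h1
  push_cast at h1
  linarith

/-- a positive vector is a multiple of a point of the simplex -/
theorem exists_scale (y : V 4) (hy : ∀ i, 0 < y i) : ∃ (S : ℝ) (v : V 4), 0 < S ∧ InSimplex v ∧
    y = fun i => S * v i := by
  have hS : 0 < y 0 + y 1 + y 2 + y 3 := by
    have h0 := hy 0
    have h1 := hy 1
    have h2 := hy 2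
    have h3 := hy 3
    positivity
  refine ⟨y 0 + y 1 + y 2 + y 3, fun i => y i / (y 0 + y 1 + y 2 + y 3), hS,
    ⟨fun i => div_pos (hy i) hS, ?_⟩, ?_⟩
  · rw [Fin.sum_univ_four]
    field_simp
  · funext i
    field_simp

theorem scale_fun {S : ℝ} {v : V 4} (hv : InSimplex v) :
    Sf (fun i => S * v i) = S ∧ e2f (fun i => S * v i) = S ^ 2 * e2f v ∧
      e3f (fun i => S * v i) = S ^ 3 * e3f v := by
  have hs := hv.2
  rw [Fin.sum_univ_four] at hs
  refine ⟨?_, ?_, ?_⟩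
  · unfold Sf
    calc S * v 0 + S * v 1 + S * v 2 + S * v 3 = S * (v 0 + v 1 + v 2 + v 3) := by ring
      _ = S := by rw [hs, mul_one]
  · unfold e2f; ring
  · unfold e3f; ring

theorem lin_FS1 (y : V 4) (hy : ∀ i, 0 < y i) :
    linR fvecS1 (MsL parts10 y) = 1875 * FS1 y := by
  obtain ⟨S, v, hS, hv, rfl⟩ := exists_scale y hy
  obtain ⟨f1, f2, f3⟩ := scale_fun (S := S) hv
  rw [linR_scale 10 S v parts10 fvecS1 deg10]
  simp only [Finset.sum_range_succ, Finset.sum_range_zero]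
  rw [ell10 fvecS1 0 _ _ _ _ _ idT1_0 v hv,
    ell10 fvecS1 1 _ _ _ _ _ idT1_1 v hv,
    ell10 fvecS1 2 _ _ _ _ _ idT1_2 v hv,
    ell10 fvecS1 3 _ _ _ _ _ idT1_3 v hv,
    ell10 fvecS1 4 _ _ _ _ _ idT1_4 v hv,
    ell10 fvecS1 5 _ _ _ _ _ idT1_5 v hv,
    ell10 fvecS1 6 _ _ _ _ _ idT1_6 v hv,
    ell10 fvecS1 7 _ _ _ _ _ idT1_7 v hv,
    ell10 fvecS1 8 _ _ _ _ _ idT1_8 v hv,
    ell10 fvecS1 9 _ _ _ _ _ idT1_9 v hv,
    ell10 fvecS1 10 _ _ _ _ _ idT1_10 v hv]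
  unfold FS1
  simp only [f1, f2, f3]
  generalize e2f v = a
  generalize e3f v = b
  unfold PSJ
  push_cast
  ring

theorem lin_FS2 (y : V 4) (hy : ∀ i, 0 < y i) :
    linR fvecS2 (MsL parts12 y) = 351562500 * FS2 y := by
  obtain ⟨S, v, hS, hv, rfl⟩ := exists_scale y hy
  obtain ⟨f1, f2, f3⟩ := scale_fun (S := S) hv
  rw [linR_scale 12 S v parts12 fvecS2 deg12]
  simp only [Finset.sum_range_succ, Finset.sum_range_zero]
  rw [ell12 fvecS2 0 _ _ _ _ _ idT2_0 v hv,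
    ell12 fvecS2 1 _ _ _ _ _ idT2_1 v hv,
    ell12 fvecS2 2 _ _ _ _ _ idT2_2 v hv,
    ell12 fvecS2 3 _ _ _ _ _ idT2_3 v hv,
    ell12 fvecS2 4 _ _ _ _ _ idT2_4 v hv,
    ell12 fvecS2 5 _ _ _ _ _ idT2_5 v hv,
    ell12 fvecS2 6 _ _ _ _ _ idT2_6 v hv,
    ell12 fvecS2 7 _ _ _ _ _ idT2_7 v hv,
    ell12 fvecS2 8 _ _ _ _ _ idT2_8 v hv,
    ell12 fvecS2 9 _ _ _ _ _ idT2_9 v hv,
    ell12 fvecS2 10 _ _ _ _ _ idT2_10 v hv,
    ell12 fvecS2 11 _ _ _ _ _ idT2_11 v hv,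
    ell12 fvecS2 12 _ _ _ _ _ idT2_12 v hv]
  unfold FS2
  simp only [f1, f2, f3]
  generalize e2f v = a
  generalize e3f v = b
  unfold PS1 PS2 PS3 PS4
  push_cast
  ring

end Vale.Agent.P154Q
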