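import Vale.Agent.P154.S.SKDefs
import Vale.Agent.P154.S.DataS1
import Vale.Agent.P154.S.DataS2

namespace Vale.Agent.P154K

def BS1 : Nat := 2 ^ 112
def BS2 : Nat := 2 ^ 128

end Vale.Agent.P154K
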