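import Vale.Agent.P154.Q.KLink
import Vale.Agent.P154.S.SKDefs

/-! From the packed checks to inequalities on `simplex x simplex`. -/

namespace Vale.Agent.P154K

open Vale.Agent.P154.Refl Vale.Agent.P154Q

theorem certS (B N : ℕ) (hB : 0 < B) (bs : List Ex4) (hb : ∀ b ∈ bs, b.deg ≤ N) (dv : List ℤ)
    (FL : List (List ℤ × List ℤ)) (h1 : allLt B (sPK N bs) = true)
    (h2 : chunkS B N bs dv FL 0 (N + 1) = true)
    (p r : V 4) (hp : InSimplex p) (hr : InSimplex r) :
    0 ≤ diagR dv (MsL bs p) (MsL bs r) + rkR FL (MsL bs p) (MsL bs r) := by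
  obtain ⟨x, y, z, c, hx, hy, hz, hc, e1⟩ := sortedP N bs hb p hp
  obtain ⟨x', y', z', c', hx', hy', hz', hc', e2⟩ := sortedP N bs hb r hr
  have h3 : chk3 B N (posW (UsK B N bs) (matM dv FL)) (negW (UsK B N bs) (matM dv FL))
      (posW (sPK N bs) (matM dv FL)) (negW (sPK N bs) (matM dv FL)) (UsK B N bs) = true := h2
  have h4 := h3
  unfold UsK sPK at h3
  rw [basN_eq_map, basN_eq_map] at h3
  have key := chk3_sound hB _ _ (FPK N) bs (fun b hbm => repP B N b (hb b hbm)) (matM dv FL) _ h3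
    hx hy hz hx' hy' hz'
  have eU : (bs.map (basE N (lfN B N 4 3 2 1) (lfN B N 1 1 1 1) (lfN B N 1 1 1 0)
      (lfN B N 1 1 0 0) (lfN B N 1 0 0 0))).map (uev3 B N x y z)
      = bs.map (fun b => FPK N b x y z) := by
    rw [List.map_map]
    refine List.map_congr_left fun b hbm => ?_
    have hs : basE N (4 + 3 + 2 + 1) (1 + 1 + 1 + 1) (1 + 1 + 1 + 0) (1 + 1 + 0 + 0)
        (1 + 0 + 0 + 0) b < B := by
      refine allLt_mem B _ h1 _ ?_
      unfold sPK
      rw [basN_eq_map]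
      exact List.mem_map_of_mem hbm
    exact ((repP B N b (hb b hbm)).uev hB hs x y z).symm
  rw [eU, bilR_matM, ← bas3P_map, ← bas3P_map, e1, e2, diagR_smul, rkR_smul, ← mul_add] at key
  have hcc : 0 < c * c' := mul_pos hc hc'
  exact (mul_nonneg_iff_of_pos_left hcc).1 key

/-- gluing chunks -/
theorem chunkS_glue (B N : ℕ) (bs : List E4) (dv : List ℤ) (FL : List (List ℤ × List ℤ))
    (n m : ℕ) (h1 : chunkS B N bs dv FL 0 n = true) (h2 : chunkS B N bs dv FL n m = true) :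
    chunkS B N bs dv FL 0 (n + m) = true :=
  chkL_split _ _ n m _ h1 h2

end Vale.Agent.P154K
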