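import Vale.Agent.P154.S.TCT2x04

namespace Vale.Agent.P154K

open Vale.Agent.P154Q

set_option maxRecDepth 1000000 in
theorem kT2_1_5 : chunkT2 BS2 12 parts12 dvecS2 FLS2 1 5 8 = true := by decide +kernel

end Vale.Agent.P154K
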