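import Vale.Agent.P154.S.SKBase

/-! A lighter packed check for `simplex x simplex`: the bilinear form is `diagonal + low rank`, so
for every monomial of the outer variables the integer coefficient vector of the inner polynomial
is computed first (small numbers), and only then the packed polynomials are combined. -/

namespace Vale.Agent.P154K

/-- integer combination of natural numbers -/
def linZ : List Int → List Nat → Int
  | c :: cs, u :: us => c * Int.ofNat u + linZ cs us
  | [], _ => 0
  | _ :: _, [] => 0

/-- entrywise product -/
def mulD : List Int → List Nat → List Int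
  | d :: ds, u :: us => (d * Int.ofNat u) :: mulD ds us
  | [], _ => []
  | _ :: _, [] => []

/-- the low rank part applied to the vector `us` -/
def rkC (us : List Nat) : List (List Int × List Int) → List Int
  | [] => []
  | t :: ts => addV (smulV (linZ t.1 us) t.2) (rkC us ts)

/-- the vector `us * (diag dv + sum of rank one terms)` -/
def rowC (dv : List Int) (FL : List (List Int × List Int)) (us : List Nat) : List Int :=
  addV (mulD dv us) (rkC us FL)

/-- `linN`, skipping zero coefficients -/
def linS : List Nat → List Nat → Nat
  | c :: cs, v :: vs => cond (Nat.beq c 0) (linS cs vs) (c * v + linS cs vs)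
  | [], _ => 0
  | _ :: _, [] => 0

/-- `rowZ` with `linS` -/
def rowT (B d : Nat) (Vs ss : List Nat) (c : List Int) : Bool :=
  Nat.blt (linS (posL c) ss) B && (Nat.blt (linS (negL c) ss) B &&
    cmp3 B d (linS (posL c) Vs) (linS (negL c) Vs))

/-- the check of one vector of outer digits -/
def rowU (B d : Nat) (Vs ss : List Nat) (dv : List Int) (FL : List (List Int × List Int))
    (us : List Nat) : Bool :=
  rowT B d Vs ss (rowC dv FL us)

/-- the check of the digits `k, ..., k + n - 1` of the first outer variable -/
def chunkT (B N : Nat) (bs : List E4) (dv : List Int) (FL : List (List Int × List Int))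
    (k n : Nat) : Bool :=
  chkL (chkL (chkL (rowU B N (UsK B N bs) (sPK N bs) dv FL) B (N + 1)) (B ^ (N + 1)) (N + 1))
    ((B ^ (N + 1)) ^ (N + 1)) n (slc ((B ^ (N + 1)) ^ (N + 1)) k (UsK B N bs))

/-- the check of the digit `k` of the first and the digits `j, ..., j + m - 1` of the second outer
variable -/
def chunkT2 (B N : Nat) (bs : List E4) (dv : List Int) (FL : List (List Int × List Int))
    (k j m : Nat) : Bool :=
  chkL (chkL (rowU B N (UsK B N bs) (sPK N bs) dv FL) B (N + 1)) (B ^ (N + 1)) m
    (slc (B ^ (N + 1)) j
      (modL ((B ^ (N + 1)) ^ (N + 1)) (slc ((B ^ (N + 1)) ^ (N + 1)) k (UsK B N bs))))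

theorem andL {a b : Bool} (h : (a && b) = true) : a = true := by
  cases a
  · exact h
  · rfl

theorem andR {a b : Bool} (h : (a && b) = true) : b = true := by
  cases a
  · exact Bool.noConfusion h
  · exact h

end Vale.Agent.P154K
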