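import Vale.Agent.P154.S.SLink
import Vale.Agent.P154.S.TKDefs

/-! Soundness of the lighter packed check. -/

namespace Vale.Agent.P154K

open Vale.Agent.P154.Refl Vale.Agent.P154Q

theorem linS_eq : ∀ cs vs : List ℕ, linS cs vs = linN cs vs
  | c :: cs, v :: vs => by
      simp only [linS, linN, linS_eq cs vs]
      cases h : Nat.beq c 0
      · rfl
      · have : c = 0 := Nat.eq_of_beq_eq_true h
        subst this
        simp
  | [], _ => by simp [linS, linN]
  | _ :: _, [] => by simp [linS, linN]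

theorem rowT_eq (B d : ℕ) (Vs ss : List ℕ) (c : List ℤ) : rowT B d Vs ss c = rowZ B d Vs ss c := by
  unfold rowT rowZ
  simp only [linS_eq]

theorem cast_linZ : ∀ (c : List ℤ) (us : List ℕ),
    ((linZ c us : ℤ) : ℝ) = linR c (us.map (fun a : ℕ => (a : ℝ)))
  | c :: cs, u :: us => by
      simp only [linZ, List.map_cons, linR, ← cast_linZ cs us]
      push_cast
      simp
  | [], _ => by simp [linZ, linR]
  | _ :: _, [] => by simp [linZ, linR]

theorem linR_mulD : ∀ (dv : List ℤ) (us : List ℕ) (vs : List ℝ),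
    linR (mulD dv us) vs = diagR dv (us.map (fun a : ℕ => (a : ℝ))) vs
  | d :: ds, u :: us, v :: vs => by
      simp only [mulD, List.map_cons, linR, diagR, linR_mulD ds us vs]
      push_cast
      simp
      ring
  | [], _, _ => by simp [mulD, linR, diagR]
  | _ :: _, [], _ => by simp [mulD, linR, diagR]
  | _ :: _, _ :: _, [] => by simp [mulD, linR, diagR]

theorem linR_rkC (us : List ℕ) (vs : List ℝ) : ∀ FL : List (List ℤ × List ℤ),
    linR (rkC us FL) vs = rkR FL (us.map (fun a : ℕ => (a : ℝ))) vs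
  | [] => by simp [rkC, linR, rkR]
  | t :: ts => by
      simp only [rkC, rkR, linR_addV, linR_smulV, cast_linZ, linR_rkC us vs ts]

theorem linR_rowC (dv : List ℤ) (FL : List (List ℤ × List ℤ)) (us : List ℕ) (vs : List ℝ) :
    linR (rowC dv FL us) vs = diagR dv (us.map (fun a : ℕ => (a : ℝ))) vs
      + rkR FL (us.map (fun a : ℕ => (a : ℝ))) vs := by
  unfold rowC
  rw [linR_addV, linR_mulD, linR_rkC]

variable {B N : ℕ}

theorem rowU_sound {ι : Type} (hB : 0 < B) (V S : ι → ℕ) (F : ι → ℝ → ℝ → ℝ → ℝ) (bs : List ι)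
    (h : ∀ b ∈ bs, Rep B N N (V b) (S b) (F b)) (dv : List ℤ) (FL : List (List ℤ × List ℤ))
    (us : List ℕ) (hc : rowU B N (bs.map V) (bs.map S) dv FL us = true)
    {x y z : ℝ} (hx : 0 ≤ x) (hy : 0 ≤ y) (hz : 0 ≤ z) :
    0 ≤ bilR (matM dv FL) (us.map (fun a : ℕ => (a : ℝ))) (bs.map (fun b => F b x y z)) := by
  rw [bilR_matM, ← linR_rowC]
  unfold rowU at hc
  rw [rowT_eq] at hc
  exact rowZ_sound hB V S F bs h _ hc hx hy hz

theorem chkT_sound {ι : Type} (hB : 0 < B) (V S : ι → ℕ) (F : ι → ℝ → ℝ → ℝ → ℝ) (bs : List ι)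
    (h : ∀ b ∈ bs, Rep B N N (V b) (S b) (F b)) (dv : List ℤ) (FL : List (List ℤ × List ℤ))
    (Us : List ℕ)
    (hc : chkL (chkL (chkL (rowU B N (bs.map V) (bs.map S) dv FL) B (N + 1)) (B ^ (N + 1)) (N + 1))
      ((B ^ (N + 1)) ^ (N + 1)) (N + 1) Us = true)
    {x y z x' y' z' : ℝ} (hx : 0 ≤ x) (hy : 0 ≤ y) (hz : 0 ≤ z) (hx' : 0 ≤ x') (hy' : 0 ≤ y')
    (hz' : 0 ≤ z') :
    0 ≤ bilR (matM dv FL) (Us.map (uev3 B N x y z)) (bs.map (fun b => F b x' y' z')) := by
  have s0 := fun us hus => rowU_sound hB V S F bs h dv FL us hus hx' hy' hz'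
  have s1 := chkL_sound (matM dv FL) (bs.map (fun b => F b x' y' z')) (fun a : ℕ => (a : ℝ))
    (by simp) _ s0 B hz (N + 1)
  have s2 := chkL_sound (matM dv FL) (bs.map (fun b => F b x' y' z')) (uev1 B N z)
    (uev1_zero B N z) _ s1 (B ^ (N + 1)) hy (N + 1)
  exact chkL_sound (matM dv FL) (bs.map (fun b => F b x' y' z')) (uev2 B N y z)
    (uev2_zero B N y z) _ s2 ((B ^ (N + 1)) ^ (N + 1)) hx (N + 1) Us hc

theorem certT (B N : ℕ) (hB : 0 < B) (bs : List Ex4) (hb : ∀ b ∈ bs, b.deg ≤ N) (dv : List ℤ)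
    (FL : List (List ℤ × List ℤ)) (h1 : allLt B (sPK N bs) = true)
    (h2 : chunkT B N bs dv FL 0 (N + 1) = true)
    (p r : V 4) (hp : InSimplex p) (hr : InSimplex r) :
    0 ≤ diagR dv (MsL bs p) (MsL bs r) + rkR FL (MsL bs p) (MsL bs r) := by
  obtain ⟨x, y, z, c, hx, hy, hz, hc, e1⟩ := sortedP N bs hb p hp
  obtain ⟨x', y', z', c', hx', hy', hz', hc', e2⟩ := sortedP N bs hb r hr
  have h3 : chkL (chkL (chkL (rowU B N (UsK B N bs) (sPK N bs) dv FL) B (N + 1)) (B ^ (N + 1))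
      (N + 1)) ((B ^ (N + 1)) ^ (N + 1)) (N + 1) (UsK B N bs) = true := h2
  unfold UsK sPK at h3
  rw [basN_eq_map, basN_eq_map] at h3
  have key := chkT_sound hB _ _ (FPK N) bs (fun b hbm => repP B N b (hb b hbm)) dv FL _ h3
    hx hy hz hx' hy' hz'
  have eU : (bs.map (basE N (lfN B N 4 3 2 1) (lfN B N 1 1 1 1) (lfN B N 1 1 1 0)
      (lfN B N 1 1 0 0) (lfN B N 1 0 0 0))).map (uev3 B N x y z)
      = bs.map (fun b => FPK N b x y z) := by
    rw [List.map_map]
    refine List.map_congr_left fun b hbm => ?_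
    have hs : basE N (4 + 3 + 2 + 1) (1 + 1 + 1 + 1) (1 + 1 + 1 + 0) (1 + 1 + 0 + 0)
        (1 + 0 + 0 + 0) b < B := by
      refine allLt_mem B _ h1 _ ?_
      unfold sPK
      rw [basN_eq_map]
      exact List.mem_map_of_mem hbm
    exact ((repP B N b (hb b hbm)).uev hB hs x y z).symm
  rw [eU, bilR_matM, ← bas3P_map, ← bas3P_map, e1, e2, diagR_smul, rkR_smul, ← mul_add] at key
  have hcc : 0 < c * c' := mul_pos hc hc'
  exact (mul_nonneg_iff_of_pos_left hcc).1 key

/-- gluing chunks of the first outer variable -/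
theorem chunkT_glue (B N : ℕ) (bs : List E4) (dv : List ℤ) (FL : List (List ℤ × List ℤ))
    (n m : ℕ) (h1 : chunkT B N bs dv FL 0 n = true) (h2 : chunkT B N bs dv FL n m = true) :
    chunkT B N bs dv FL 0 (n + m) = true :=
  chkL_split _ _ n m _ h1 h2

/-- gluing chunks of the second outer variable -/
theorem chunkT2_glue (B N : ℕ) (bs : List E4) (dv : List ℤ) (FL : List (List ℤ × List ℤ))
    (k n m : ℕ) (h1 : chunkT2 B N bs dv FL k 0 n = true) (h2 : chunkT2 B N bs dv FL k n m = true) :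
    chunkT2 B N bs dv FL k 0 (n + m) = true :=
  chkL_split _ _ n m _ h1 h2

theorem chkL_one (chk : List ℕ → Bool) (X : ℕ) (Us : List ℕ) (h : chk (modL X Us) = true) :
    chkL chk X 1 Us = true := by
  show (allZ Us || (chk (modL X Us) && chkL chk X 0 (divL X Us))) = true
  rw [h]
  simp [chkL]

/-- a complete set of digits of the second variable gives one digit of the first -/
theorem chunkT_of_T2 (B N : ℕ) (bs : List E4) (dv : List ℤ) (FL : List (List ℤ × List ℤ))
    (k : ℕ) (h : chunkT2 B N bs dv FL k 0 (N + 1) = true) : chunkT B N bs dv FL k 1 = true :=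
  chkL_one _ _ _ h

end Vale.Agent.P154K
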